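import Vale.Agent.P043.Sys3
import Vale.Agent.P043.Real

open MeasureTheory Vale.Agent.P043

theorem Vale.Agent.Results.P043.DimThree.result (d : ℕ) (hd : 3 ≤ d) :
    (∃ F : Finset (Fin d → ℤ), F.Nonempty ∧ (∃ A : Set (Fin d → ℤ), IsTiling A F) ∧
      ∀ A : Set (Fin d → ℤ), IsTiling A F → ¬ IsPeriodic A) ∧
    (∃ Ω : Set (Fin d → ℝ), Bornology.IsBounded Ω ∧ MeasurableSet Ω ∧ 0 < volume Ω ∧
      (∃ A : Set (Fin d → ℝ), IsRealTiling Ω A) ∧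
      ∀ A : Set (Fin d → ℝ), IsRealTiling Ω A → ¬ IsRealPeriodic A) := by
  obtain ⟨F, hF⟩ := T3.sys_dim3 d hd
  refine ⟨⟨F, ?_, ?_, ?_⟩, _, real_of_sys F hF⟩
  · obtain ⟨A, hA⟩ := hF.1
    exact (hA F (by simp)).nonempty
  · obtain ⟨A, hA⟩ := hF.1
    exact ⟨A, hA F (by simp)⟩
  · intro A hA hP
    exact hF.2 A (by simpa using hA) (per_of_periodic hP)
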